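import Mathlib

/-!
P028: averaging over the translates `j / N` on the circle.
-/

namespace Vale.Agent.P028

open MeasureTheory Set Metric

theorem near_point (N : ℕ) [NeZero N] (w : UnitAddCircle) :
    ∃ k : ZMod N, ‖w - ZMod.toAddCircle k‖ ≤ 1 / (N : ℝ) := by
  obtain ⟨x, rfl⟩ := QuotientAddGroup.mk_surjective w
  refine ⟨((⌊(N : ℝ) * x⌋ : ℤ) : ZMod N), ?_⟩
  have hN : (0 : ℝ) < N := by exact_mod_cast Nat.pos_of_ne_zero (NeZero.ne N)
  have h1 : ((x : ℝ) : UnitAddCircle) - ZMod.toAddCircle (((⌊(N : ℝ) * x⌋ : ℤ) : ZMod N)) =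
      ((x - (⌊(N : ℝ) * x⌋ : ℝ) / N : ℝ) : UnitAddCircle) := by
    rw [ZMod.toAddCircle_intCast]
    rfl
  have h2 : ‖((x - (⌊(N : ℝ) * x⌋ : ℝ) / N : ℝ) : UnitAddCircle)‖ ≤
      |x - (⌊(N : ℝ) * x⌋ : ℝ) / N| := by
    have := QuotientAddGroup.norm_mk_le_norm (S := AddSubgroup.zmultiples (1 : ℝ))
      (m := (x - (⌊(N : ℝ) * x⌋ : ℝ) / N))
    exact this
  have h3 : |x - (⌊(N : ℝ) * x⌋ : ℝ) / N| ≤ 1 / N := by
    have ha := Int.floor_le ((N : ℝ) * x)
    have hb := Int.lt_floor_add_one ((N : ℝ) * x)
    have h4 : x - (⌊(N : ℝ) * x⌋ : ℝ) / N = ((N : ℝ) * x - ⌊(N : ℝ) * x⌋) / N := by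
      field_simp
    rw [h4, abs_of_nonneg (div_nonneg (by linarith) hN.le)]
    exact div_le_div_of_nonneg_right (by linarith) hN.le
  exact (h1 ▸ h2).trans h3

theorem integrable_ind (A : Set UnitAddCircle) (hA : MeasurableSet A) (a : UnitAddCircle) :
    Integrable (fun z : UnitAddCircle => A.indicator (fun _ => (1 : ℝ)) (z + a)) := by
  have h : Integrable (A.indicator (fun _ : UnitAddCircle => (1 : ℝ))) :=
    (integrable_const (1 : ℝ)).indicator hA
  exact h.comp_add_right a

theorem integral_ind (A : Set UnitAddCircle) (hA : MeasurableSet A) (a : UnitAddCircle) :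
    ∫ z : UnitAddCircle, A.indicator (fun _ => (1 : ℝ)) (z + a) = volume.real A := by
  rw [integral_add_right_eq_self (fun z : UnitAddCircle => A.indicator (fun _ => (1 : ℝ)) z) a]
  rw [integral_indicator_const _ hA]
  simp

/-- the average of the indicator of a closed set over the `N` translates `y + j / N` is at most
the measure of the closed `1 / N`-thickening -/
theorem avg_le (N : ℕ) [NeZero N] (F : Set UnitAddCircle) (hF : IsClosed F) (y : UnitAddCircle) :
    ((∑ j : ZMod N, F.indicator (fun _ => (1 : ℝ)) (y + ZMod.toAddCircle j)) / N) ≤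
      volume.real (cthickening (1 / N : ℝ) F) := by
  classical
  have hN : (0 : ℝ) < N := by exact_mod_cast Nat.pos_of_ne_zero (NeZero.ne N)
  set F' := cthickening (1 / N : ℝ) F with hF'
  have hF'm : MeasurableSet F' := isClosed_cthickening.measurableSet
  have hpt : ∀ z : UnitAddCircle,
      (∑ j : ZMod N, F.indicator (fun _ => (1 : ℝ)) (y + ZMod.toAddCircle j)) ≤
        ∑ j : ZMod N, F'.indicator (fun _ => (1 : ℝ)) (z + ZMod.toAddCircle j) := by
    intro z
    obtain ⟨k, hk⟩ := near_point N (z - y)
    have e1 : (∑ j : ZMod N, F.indicator (fun _ => (1 : ℝ)) (y + ZMod.toAddCircle j)) =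
        ∑ j : ZMod N, F.indicator (fun _ => (1 : ℝ)) (y + ZMod.toAddCircle (j + k)) :=
      (Equiv.sum_comp (Equiv.addRight k)
        (fun j : ZMod N => F.indicator (fun _ => (1 : ℝ)) (y + ZMod.toAddCircle j))).symm
    rw [e1]
    apply Finset.sum_le_sum
    intro j _
    by_cases hm : y + ZMod.toAddCircle (j + k) ∈ F
    · have hm' : z + ZMod.toAddCircle j ∈ F' := by
        rw [hF']
        refine mem_cthickening_of_dist_le _ _ _ _ hm ?_
        rw [dist_eq_norm]
        have e2 : z + ZMod.toAddCircle j - (y + ZMod.toAddCircle (j + k)) =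
            z - y - ZMod.toAddCircle k := by
          rw [map_add]; abel
        rw [e2]
        exact hk
      rw [indicator_of_mem hm, indicator_of_mem hm']
    · rw [indicator_of_notMem hm]
      exact indicator_nonneg (fun _ _ => zero_le_one) _
  have hint : (∑ j : ZMod N, F.indicator (fun _ => (1 : ℝ)) (y + ZMod.toAddCircle j)) ≤
      N * volume.real F' := by
    have h1 : ∫ _z : UnitAddCircle,
        (∑ j : ZMod N, F.indicator (fun _ => (1 : ℝ)) (y + ZMod.toAddCircle j)) ≤
        ∫ z : UnitAddCircle,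
          ∑ j : ZMod N, F'.indicator (fun _ => (1 : ℝ)) (z + ZMod.toAddCircle j) := by
      apply integral_mono (integrable_const _)
      · exact integrable_finsetSum _ (fun j _ => integrable_ind F' hF'm _)
      · intro z
        exact hpt z
    rw [integral_const, integral_finsetSum _ (fun j _ => integrable_ind F' hF'm _)] at h1
    simp only [integral_ind F' hF'm, Finset.sum_const, Finset.card_univ, ZMod.card,
      nsmul_eq_mul] at h1
    have hu : volume.real (univ : Set UnitAddCircle) = 1 := by
      simp [measureReal_def]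
    rw [hu, one_smul] at h1
    exact h1
  rw [div_le_iff₀ hN]
  linarith

/-- if `G` is invariant under the translates `j / N` and the averages of the indicator of `H`
over these translates are at most `c`, then the measure of `G ∩ H` is at most `c` times the
measure of `G` -/
theorem inter_le (N : ℕ) [NeZero N] (G H : Set UnitAddCircle) (hG : MeasurableSet G)
    (hH : MeasurableSet H) (hinv : ∀ (j : ZMod N) (y : UnitAddCircle),
      y + ZMod.toAddCircle j ∈ G ↔ y ∈ G) (c : ℝ)
    (hc : ∀ y : UnitAddCircle,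
      (∑ j : ZMod N, H.indicator (fun _ => (1 : ℝ)) (y + ZMod.toAddCircle j)) / N ≤ c) :
    volume.real (G ∩ H) ≤ c * volume.real G := by
  classical
  have hN : (0 : ℝ) < N := by exact_mod_cast Nat.pos_of_ne_zero (NeZero.ne N)
  have key : ∀ j : ZMod N, volume.real (G ∩ H) =
      ∫ y : UnitAddCircle, G.indicator (fun _ => (1 : ℝ)) y *
        H.indicator (fun _ => (1 : ℝ)) (y + ZMod.toAddCircle j) := by
    intro j
    rw [← integral_ind (G ∩ H) (hG.inter hH) (ZMod.toAddCircle j)]
    apply integral_congr_ae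
    filter_upwards with y
    by_cases h1 : y ∈ G
    · have h1' := (hinv j y).2 h1
      by_cases h2 : y + ZMod.toAddCircle j ∈ H
      · have h3 : y + ZMod.toAddCircle j ∈ G ∩ H := ⟨h1', h2⟩
        rw [indicator_of_mem h3, indicator_of_mem h1, indicator_of_mem h2]
        norm_num
      · rw [indicator_of_notMem (fun h => h2 h.2), indicator_of_notMem h2]
        simp
    · have h1' : y + ZMod.toAddCircle j ∉ G := fun h => h1 ((hinv j y).1 h)
      rw [indicator_of_notMem (fun h => h1' h.1), indicator_of_notMem h1]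
      simp
  have hintg : ∀ j : ZMod N, Integrable (fun y : UnitAddCircle =>
      G.indicator (fun _ => (1 : ℝ)) y *
        H.indicator (fun _ => (1 : ℝ)) (y + ZMod.toAddCircle j)) := by
    intro j
    have h1 := (integrable_ind H hH (ZMod.toAddCircle j)).indicator hG
    refine h1.congr ?_
    filter_upwards with y
    by_cases h : y ∈ G
    · rw [indicator_of_mem h, indicator_of_mem h, one_mul]
    · rw [indicator_of_notMem h, indicator_of_notMem h, zero_mul]
  have hsum : (N : ℝ) * volume.real (G ∩ H) =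
      ∫ y : UnitAddCircle, G.indicator (fun _ => (1 : ℝ)) y *
        ∑ j : ZMod N, H.indicator (fun _ => (1 : ℝ)) (y + ZMod.toAddCircle j) := by
    have e1 : (fun y : UnitAddCircle => G.indicator (fun _ => (1 : ℝ)) y *
        ∑ j : ZMod N, H.indicator (fun _ => (1 : ℝ)) (y + ZMod.toAddCircle j)) =
        fun y : UnitAddCircle => ∑ j : ZMod N, G.indicator (fun _ => (1 : ℝ)) y *
          H.indicator (fun _ => (1 : ℝ)) (y + ZMod.toAddCircle j) := by
      funext y
      rw [Finset.mul_sum]
    rw [e1, integral_finsetSum _ (fun j _ => hintg j)]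
    have e2 : ∀ j ∈ (Finset.univ : Finset (ZMod N)), (∫ y : UnitAddCircle,
        G.indicator (fun _ => (1 : ℝ)) y *
          H.indicator (fun _ => (1 : ℝ)) (y + ZMod.toAddCircle j)) = volume.real (G ∩ H) :=
      fun j _ => (key j).symm
    rw [Finset.sum_congr rfl e2, Finset.sum_const, Finset.card_univ, ZMod.card, nsmul_eq_mul]
  have hle : (∫ y : UnitAddCircle, G.indicator (fun _ => (1 : ℝ)) y *
        ∑ j : ZMod N, H.indicator (fun _ => (1 : ℝ)) (y + ZMod.toAddCircle j)) ≤
      ∫ y : UnitAddCircle, (N * c) * G.indicator (fun _ => (1 : ℝ)) (y + 0) := by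
    apply integral_mono
    · have e1 : (fun y : UnitAddCircle => G.indicator (fun _ => (1 : ℝ)) y *
          ∑ j : ZMod N, H.indicator (fun _ => (1 : ℝ)) (y + ZMod.toAddCircle j)) =
          fun y : UnitAddCircle => ∑ j : ZMod N, G.indicator (fun _ => (1 : ℝ)) y *
            H.indicator (fun _ => (1 : ℝ)) (y + ZMod.toAddCircle j) := by
        funext y
        rw [Finset.mul_sum]
      rw [e1]
      exact integrable_finsetSum _ (fun j _ => hintg j)
    · exact (integrable_ind G hG 0).const_mul _
    · intro y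
      have h1 := hc y
      rw [div_le_iff₀ hN] at h1
      simp only [add_zero]
      have h2 : (0 : ℝ) ≤ G.indicator (fun _ => (1 : ℝ)) y :=
        indicator_nonneg (fun _ _ => zero_le_one) _
      calc G.indicator (fun _ => (1 : ℝ)) y *
            ∑ j : ZMod N, H.indicator (fun _ => (1 : ℝ)) (y + ZMod.toAddCircle j)
          ≤ G.indicator (fun _ => (1 : ℝ)) y * (c * N) := mul_le_mul_of_nonneg_left h1 h2
        _ = (N * c) * G.indicator (fun _ => (1 : ℝ)) y := by ring
  rw [integral_const_mul, integral_ind G hG 0] at hle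
  rw [← hsum] at hle
  have h5 : (N : ℝ) * volume.real (G ∩ H) ≤ N * (c * volume.real G) := by
    calc (N : ℝ) * volume.real (G ∩ H) ≤ N * c * volume.real G := hle
      _ = N * (c * volume.real G) := by ring
  exact le_of_mul_le_mul_left h5 hN

end Vale.Agent.P028
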