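import Vale.Agent.Lib.P028.Defs

namespace Vale.Agent.P028
open MeasureTheory Set Metric

/-- multiplication by `d` preserves the measure -/
theorem mp_nsmul {d : ℕ} (hd : 1 ≤ d) :
    MeasurePreserving (fun y : UnitAddCircle => d • y) volume volume := by
  rcases Nat.lt_or_ge 1 d with h | h
  · exact (AddCircle.ergodic_nsmul h).toMeasurePreserving
  · obtain rfl : d = 1 := le_antisymm h hd
    have : (fun y : UnitAddCircle => 1 • y) = id := by
      funext y
      simp
    rw [this]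
    exact MeasurePreserving.id (volume : Measure UnitAddCircle)

theorem cthick_ball (x : UnitAddCircle) {r δ : ℝ} (hr : 0 ≤ r) (hδ : 0 ≤ δ) :
    cthickening δ (closedBall x r) ⊆ closedBall x (r + δ) := by
  have h1 : closedBall x r ⊆ cthickening r {x} := closedBall_subset_cthickening_singleton x r
  calc cthickening δ (closedBall x r) ⊆ cthickening δ (cthickening r {x}) :=
        cthickening_subset_of_subset _ h1
    _ ⊆ cthickening (δ + r) {x} := cthickening_cthickening_subset hδ hr _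
    _ = closedBall x (r + δ) := by rw [cthickening_singleton _ (by linarith), add_comm]

theorem vol_ball_le (x : UnitAddCircle) {r : ℝ} (hr : 0 ≤ r) :
    (volume : Measure UnitAddCircle).real (closedBall x r) ≤ 2 * r := by
  rw [measureReal_def, AddCircle.volume_closedBall]
  rw [ENNReal.toReal_ofReal (by positivity)]
  exact min_le_right _ _

/-- the sets at a multiple -/
theorem E_mul (γ ψ : ℝ) (d m : ℕ) :
    E γ ψ (d * m) = (fun y : UnitAddCircle => d • y) ⁻¹' E γ ψ m := by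
  ext y
  simp only [E, mem_ofPred_eq, mem_preimage]
  rw [show (d * m) • y = m • d • y by rw [← mul_smul, mul_comm]]

theorem E_inv (γ ψ : ℝ) (n : ℕ) [NeZero n] (j : ZMod n) (y : UnitAddCircle) :
    y + ZMod.toAddCircle j ∈ E γ ψ n ↔ y ∈ E γ ψ n := by
  simp only [E, mem_ofPred_eq, smul_add]
  have : n • (ZMod.toAddCircle j : UnitAddCircle) = 0 := by
    rw [← map_nsmul]
    simp
  rw [this, add_zero]

variable (hOpen : ∀ (γ ψ : ℝ) (n : ℕ), IsOpen (E γ ψ n))
variable (hVol : ∀ (γ : ℝ) {ψ : ℝ}, 0 ≤ ψ → ψ ≤ 1 / 2 → ∀ {n : ℕ}, 1 ≤ n →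
    volume.real (E γ ψ n) = 2 * ψ)
variable (hAvg : ∀ (N : ℕ) [NeZero N] (F : Set UnitAddCircle), IsClosed F → ∀ y : UnitAddCircle,
    ((∑ j : ZMod N, F.indicator (fun _ => (1 : ℝ)) (y + ZMod.toAddCircle j)) / N) ≤
      volume.real (cthickening (1 / N : ℝ) F))
variable (hInter : ∀ (N : ℕ) [NeZero N] (G H : Set UnitAddCircle), MeasurableSet G →
    MeasurableSet H → (∀ (j : ZMod N) (y : UnitAddCircle),
      y + ZMod.toAddCircle j ∈ G ↔ y ∈ G) → ∀ (c : ℝ),
    (∀ y : UnitAddCircle,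
      (∑ j : ZMod N, H.indicator (fun _ => (1 : ℝ)) (y + ZMod.toAddCircle j)) / N ≤ c) →
    volume.real (G ∩ H) ≤ c * volume.real G)

include hOpen hVol hAvg hInter in
theorem overlap_of (γ γ' : ℝ) {ψ ψ' : ℝ} (h0 : 0 ≤ ψ) (h0' : 0 ≤ ψ')
    (h1' : ψ' ≤ 1 / 2) {m n : ℕ} (hm : 1 ≤ m) (hn : 1 ≤ n) :
    volume.real (E γ ψ m ∩ E γ' ψ' n) ≤ (2 * ψ') * (2 * (ψ + (Nat.gcd m n : ℝ) / n)) := by
  obtain ⟨m', n', hco, h1, h2⟩ := Nat.exists_coprime m n
  have hd : 1 ≤ Nat.gcd m n := Nat.gcd_pos_of_pos_left n hm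
  set d := Nat.gcd m n with hddef
  clear_value d
  subst h1 h2
  have hm' : 1 ≤ m' := Nat.pos_of_ne_zero (by rintro rfl; simp at hm)
  have hn' : 1 ≤ n' := Nat.pos_of_ne_zero (by rintro rfl; simp at hn)
  have hn0 : NeZero n' := ⟨by omega⟩
  have hdR : (0 : ℝ) < d := by exact_mod_cast hd
  have hnR : (0 : ℝ) < n' := by exact_mod_cast hn'
  have e1 : E γ ψ (m' * d) ∩ E γ' ψ' (n' * d) =
      (fun y : UnitAddCircle => d • y) ⁻¹' (E γ' ψ' n' ∩ E γ ψ m') := by
    rw [mul_comm m' d, mul_comm n' d, E_mul, E_mul, preimage_inter, inter_comm]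
  have hmeas : MeasurableSet (E γ' ψ' n' ∩ E γ ψ m') :=
    (hOpen γ' ψ' n').measurableSet.inter (hOpen γ ψ m').measurableSet
  have e2 : (volume : Measure UnitAddCircle).real (E γ ψ (m' * d) ∩ E γ' ψ' (n' * d)) =
      volume.real (E γ' ψ' n' ∩ E γ ψ m') := by
    rw [e1, measureReal_def, measureReal_def,
      (mp_nsmul hd).measure_preimage hmeas.nullMeasurableSet]
  have e3 : ((d : ℝ) / ((n' * d : ℕ) : ℝ)) = 1 / n' := by
    push_cast
    field_simp
  rw [e2, e3, ← hVol γ' h0' h1' hn', mul_comm]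
  refine hInter n' _ _ (hOpen γ' ψ' n').measurableSet (hOpen γ ψ m').measurableSet
    (fun j y => E_inv γ' ψ' n' j y) _ (fun y => ?_)
  set F : Set UnitAddCircle := closedBall ((γ : UnitAddCircle)) ψ with hF
  have f1 : ∀ j : ZMod n', (E γ ψ m').indicator (fun _ => (1 : ℝ)) (y + ZMod.toAddCircle j) ≤
      F.indicator (fun _ => (1 : ℝ)) (m' • y + ZMod.toAddCircle ((m' : ZMod n') * j)) := by
    intro j
    have g1 : m' • (y + (ZMod.toAddCircle j : UnitAddCircle)) =
        m' • y + ZMod.toAddCircle ((m' : ZMod n') * j) := by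
      rw [smul_add, ← map_nsmul, nsmul_eq_mul]
    by_cases h : y + (ZMod.toAddCircle j : UnitAddCircle) ∈ E γ ψ m'
    · have g2 : m' • y + (ZMod.toAddCircle ((m' : ZMod n') * j) : UnitAddCircle) ∈ F := by
        rw [hF, mem_closedBall, dist_eq_norm, ← g1]
        exact le_of_lt h
      rw [indicator_of_mem h, indicator_of_mem g2]
    · rw [indicator_of_notMem h]
      exact indicator_nonneg (fun _ _ => zero_le_one) _
  have hu : IsUnit (m' : ZMod n') := (ZMod.isUnit_iff_coprime m' n').2 hco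
  have f2 : ∑ j : ZMod n', F.indicator (fun _ => (1 : ℝ))
        (m' • y + ZMod.toAddCircle ((m' : ZMod n') * j)) =
      ∑ j : ZMod n', F.indicator (fun _ => (1 : ℝ)) (m' • y + ZMod.toAddCircle j) := by
    obtain ⟨u, hu⟩ := hu
    rw [← hu]
    exact Fintype.sum_equiv (Units.mulLeft u) _ _ (fun j => rfl)
  have f3 := hAvg n' F isClosed_closedBall (m' • y)
  have f4 : (volume : Measure UnitAddCircle).real (cthickening (1 / n' : ℝ) F) ≤
      2 * (ψ + 1 / n') := by
    refine le_trans (measureReal_mono (cthick_ball _ h0 (by positivity)) (measure_ne_top _ _)) ?_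
    exact vol_ball_le _ (by positivity)
  refine le_trans ?_ (f3.trans f4)
  rw [← f2]
  gcongr with j
  exact f1 j

include hOpen hInter hAvg in
theorem equi_of (F : Set UnitAddCircle) (hF : IsCompact F) {δ : ℝ} (hδ : 0 < δ) :
    ∃ N₀ : ℕ, 1 ≤ N₀ ∧ ∀ n ≥ N₀, ∀ γ ψ : ℝ,
      volume.real (E γ ψ n ∩ F) ≤ (volume.real F + δ) * volume.real (E γ ψ n) := by
  have h1 := tendsto_measure_cthickening_of_isCompact (μ := (volume : Measure UnitAddCircle)) hF
  have h2 : Filter.Tendsto (fun r : ℝ => (volume : Measure UnitAddCircle).real (cthickening r F))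
      (nhds 0) (nhds (volume.real F)) :=
    (ENNReal.tendsto_toReal (measure_ne_top _ _)).comp h1
  have h3 : Filter.Tendsto (fun n : ℕ => (volume : Measure UnitAddCircle).real
      (cthickening (1 / n : ℝ) F)) Filter.atTop (nhds (volume.real F)) :=
    h2.comp tendsto_one_div_atTop_nhds_zero_nat
  have h4 := h3.eventually_lt_const (show volume.real F < volume.real F + δ by linarith)
  obtain ⟨N₀, hN₀⟩ := Filter.eventually_atTop.1 h4
  refine ⟨max N₀ 1, le_max_right _ _, fun n hn γ ψ => ?_⟩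
  have hn0 : N₀ ≤ n := le_trans (le_max_left _ _) hn
  have : NeZero n := ⟨by have := le_trans (le_max_right N₀ 1) hn; omega⟩
  exact hInter n _ _ (hOpen γ ψ n).measurableSet hF.isClosed.measurableSet
    (fun j y => E_inv γ ψ n j y) _ (fun y => (hAvg n F hF.isClosed y).trans (hN₀ n hn0).le)

end Vale.Agent.P028
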