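import Mathlib

/-!
P028: abstract zero-one lemma (Chung-Erdos inequality and inner regularity).
-/

namespace Vale.Agent.P028

open MeasureTheory Set Metric

theorem M4_chung_erdos {X : Type*} [MeasurableSpace X] (μ : Measure X) [IsProbabilityMeasure μ]
    (S : Finset ℕ) (B : ℕ → Set X) (hB : ∀ n, MeasurableSet (B n)) :
    (∑ n ∈ S, μ.real (B n)) ^ 2 ≤
      μ.real (⋃ n ∈ S, B n) * ∑ m ∈ S, ∑ n ∈ S, μ.real (B m ∩ B n) := by
  set U : Set X := ⋃ n ∈ S, B n with hU
  have hUm : MeasurableSet U := Finset.measurableSet_biUnion S fun n _ => hB n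
  set a : ℝ := ∑ n ∈ S, μ.real (B n) with ha
  set q : ℝ := ∑ m ∈ S, ∑ n ∈ S, μ.real (B m ∩ B n) with hq
  have hint : ∀ s : Set X, MeasurableSet s → Integrable (s.indicator (1 : X → ℝ)) μ := fun s hs =>
    (integrable_const (1 : ℝ)).indicator hs
  have key : ∀ t : ℝ, 0 ≤ t ^ 2 * μ.real U - 2 * t * a + q := by
    intro t
    have h1 : ∫ x, (t * U.indicator (1 : X → ℝ) x - ∑ n ∈ S, (B n).indicator (1 : X → ℝ) x) ^ 2 ∂μ
        = t ^ 2 * μ.real U - 2 * t * a + q := by
      have h2 : ∀ x, (t * U.indicator (1 : X → ℝ) x - ∑ n ∈ S, (B n).indicator (1 : X → ℝ) x) ^ 2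
          = t ^ 2 * U.indicator (1 : X → ℝ) x - 2 * t * ∑ n ∈ S, (B n).indicator (1 : X → ℝ) x +
            ∑ m ∈ S, ∑ n ∈ S, (B m ∩ B n).indicator (1 : X → ℝ) x := by
        intro x
        have h3 : (∑ n ∈ S, (B n).indicator (1 : X → ℝ) x) ^ 2 =
            ∑ m ∈ S, ∑ n ∈ S, (B m ∩ B n).indicator (1 : X → ℝ) x := by
          rw [sq, Finset.sum_mul_sum]
          refine Finset.sum_congr rfl fun m _ => Finset.sum_congr rfl fun n _ => ?_
          rw [Set.inter_indicator_one]
          rfl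
        by_cases hx : x ∈ U
        · rw [Set.indicator_of_mem hx, Pi.one_apply, ← h3]
          ring
        · have h4 : ∀ n ∈ S, (B n).indicator (1 : X → ℝ) x = 0 := by
            intro n hn
            refine Set.indicator_of_notMem (fun hxn => hx ?_) _
            exact Set.mem_biUnion hn hxn
          rw [Set.indicator_of_notMem hx, ← h3, Finset.sum_eq_zero h4]
          ring
      simp_rw [h2]
      rw [integral_add, integral_sub, integral_const_mul, integral_const_mul,
        integral_indicator_one hUm, integral_finsetSum, integral_finsetSum]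
      · congr 1
        · congr 2
          exact Finset.sum_congr rfl fun n _ => integral_indicator_one (hB n)
        · refine Finset.sum_congr rfl fun m _ => ?_
          rw [integral_finsetSum]
          · exact Finset.sum_congr rfl fun n _ => integral_indicator_one ((hB m).inter (hB n))
          · intro n _
            exact hint _ ((hB m).inter (hB n))
      · intro m _
        exact integrable_finsetSum _ fun n _ => hint _ ((hB m).inter (hB n))
      · intro n _
        exact hint _ (hB n)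
      · exact (hint _ hUm).const_mul _
      · exact (integrable_finsetSum _ fun n _ => hint _ (hB n)).const_mul _
      · exact ((hint _ hUm).const_mul _).sub
          ((integrable_finsetSum _ fun n _ => hint _ (hB n)).const_mul _)
      · exact integrable_finsetSum _ fun m _ => integrable_finsetSum _ fun n _ =>
          hint _ ((hB m).inter (hB n))
    rw [← h1]
    exact integral_nonneg fun x => sq_nonneg _
  rcases (measureReal_nonneg (μ := μ) (s := U)).eq_or_lt with hu | hu
  · have h5 : a = 0 := by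
      rw [ha]
      refine Finset.sum_eq_zero fun n hn => ?_
      refine le_antisymm ?_ measureReal_nonneg
      rw [hu]
      have h8 : B n ⊆ U := fun x hx => Set.mem_biUnion hn hx
      exact measureReal_mono h8 (measure_ne_top μ _)
    rw [h5, ← hu]
    simp
  · have h6 := key (a / μ.real U)
    have h7 : (a / μ.real U) ^ 2 * μ.real U - 2 * (a / μ.real U) * a + q =
        q - a ^ 2 / μ.real U := by
      field_simp
      ring
    rw [h7, sub_nonneg, div_le_iff₀ hu] at h6
    linarith

theorem zero_one {X : Type*} [TopologicalSpace X] [MeasurableSpace X] [BorelSpace X]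
    (μ : Measure X) [IsProbabilityMeasure μ] [μ.InnerRegular] (A : ℕ → Set X)
    (hA : ∀ n, MeasurableSet (A n))
    (heq : ∀ F : Set X, IsCompact F → ∀ δ > 0, ∃ N₀, ∀ n ≥ N₀,
      μ.real (A n ∩ F) ≤ (μ.real F + δ) * μ.real (A n))
    (C : ℝ) (hC : 0 < C)
    (hq : ∀ N₀ : ℕ, ∃ S : Finset ℕ, (∀ n ∈ S, N₀ ≤ n) ∧ 0 < ∑ n ∈ S, μ.real (A n) ∧
      ∑ m ∈ S, ∑ n ∈ S, μ.real (A m ∩ A n) ≤ C * (∑ n ∈ S, μ.real (A n)) ^ 2) :
    ∀ᵐ x ∂μ, ∃ᶠ n in Filter.atTop, x ∈ A n := by
  set E : Set X := {x | ∃ᶠ n in Filter.atTop, x ∈ A n} with hE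
  set V : ℕ → Set X := fun N => ⋃ n, ⋃ (_ : N ≤ n), A n with hV
  have hVm : ∀ N, MeasurableSet (V N) := fun N =>
    MeasurableSet.iUnion fun n => MeasurableSet.iUnion fun _ => hA n
  have hEV : E = ⋂ N, V N := by
    ext x
    simp only [hE, hV, Set.mem_ofPred_eq, Filter.frequently_atTop, Set.mem_iInter, Set.mem_iUnion,
      exists_prop]
  have hEm : MeasurableSet E := by
    rw [hEV]
    exact MeasurableSet.iInter hVm
  by_contra hcon
  rw [ae_iff] at hcon
  have hcompl : {x | ¬ ∃ᶠ n in Filter.atTop, x ∈ A n} = Eᶜ := rfl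
  rw [hcompl] at hcon
  set β : ℝ := μ.real Eᶜ with hβ
  have hβ0 : 0 < β := ENNReal.toReal_pos hcon (measure_ne_top μ _)
  have hμE : μ.real E = 1 - β := by
    rw [hβ, probReal_compl_eq_one_sub hEm]
    ring
  set η : ℝ := (β / 2) ^ 2 / C with hη
  have hη0 : 0 < η := by positivity
  obtain ⟨F, hFE, hFc, hF⟩ : ∃ F ⊆ E, IsCompact F ∧ μ.real E ≤ μ.real F + η / 2 := by
    rcases eq_or_ne (μ E) 0 with h0 | h0
    · refine ⟨∅, Set.empty_subset _, isCompact_empty, ?_⟩
      rw [measureReal_def, h0]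
      simp
      positivity
    · have h1 : μ E - ENNReal.ofReal (η / 2) < μ E :=
        ENNReal.sub_lt_self (measure_ne_top μ _) h0 (by simpa using half_pos hη0)
      obtain ⟨K, hKE, hKc, hK⟩ := hEm.exists_lt_isCompact h1
      refine ⟨K, hKE, hKc, ?_⟩
      have h2 : μ E ≤ μ K + ENNReal.ofReal (η / 2) := tsub_le_iff_right.1 hK.le
      have h3 := ENNReal.toReal_mono (by
        exact ENNReal.add_ne_top.2 ⟨measure_ne_top μ _, ENNReal.ofReal_ne_top⟩) h2
      rw [ENNReal.toReal_add (measure_ne_top μ _) ENNReal.ofReal_ne_top,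
        ENNReal.toReal_ofReal (by positivity)] at h3
      exact h3
  set F' : Set X := toMeasurable μ F with hF'
  have hF'm : MeasurableSet F' := measurableSet_toMeasurable μ F
  have hinter : ∀ s : Set X, MeasurableSet s → μ.real (s ∩ F') = μ.real (s ∩ F) := by
    intro s hs
    rw [measureReal_def, measureReal_def, Set.inter_comm s F', Set.inter_comm s F, hF',
      Measure.measure_toMeasurable_inter hs (measure_ne_top μ _)]
  obtain ⟨N₀, hN₀⟩ := heq F hFc (β / 2) (by positivity)
  have hFle : μ.real F ≤ 1 - β := by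
    rw [← hμE]
    exact measureReal_mono hFE
  set B : Set X := F'ᶜ with hB
  have hBm : MeasurableSet B := hF'm.compl
  have hAB : ∀ n ≥ N₀, β / 2 * μ.real (A n) ≤ μ.real (A n ∩ B) := by
    intro n hn
    have h1 : μ.real (A n ∩ F') + μ.real (A n \ F') = μ.real (A n) :=
      measureReal_inter_add_sdiff hF'm
    have h2 := hN₀ n hn
    rw [← hinter _ (hA n)] at h2
    have h3 : A n ∩ B = A n \ F' := rfl
    rw [h3]
    have h4 : 0 ≤ μ.real (A n) := measureReal_nonneg
    nlinarith
  have hbig : ∀ N, η ≤ μ.real (V N ∩ B) := by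
    intro N
    obtain ⟨S, hS1, hS2, hS3⟩ := hq (max N N₀)
    have h1 := M4_chung_erdos μ S (fun n => A n ∩ B) (fun n => (hA n).inter hBm)
    set a : ℝ := ∑ n ∈ S, μ.real (A n) with ha
    have h2 : β / 2 * a ≤ ∑ n ∈ S, μ.real (A n ∩ B) := by
      rw [ha, Finset.mul_sum]
      exact Finset.sum_le_sum fun n hn => hAB n ((le_max_right _ _).trans (hS1 n hn))
    have h3 : ∑ m ∈ S, ∑ n ∈ S, μ.real ((A m ∩ B) ∩ (A n ∩ B)) ≤ C * a ^ 2 := by
      refine le_trans (Finset.sum_le_sum fun m _ => Finset.sum_le_sum fun n _ => ?_) hS3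
      refine measureReal_mono ?_
      intro x hx
      exact ⟨hx.1.1, hx.2.1⟩
    have h4 : μ.real (⋃ n ∈ S, A n ∩ B) ≤ μ.real (V N ∩ B) := by
      refine measureReal_mono ?_
      intro x hx
      simp only [Set.mem_iUnion] at hx
      obtain ⟨n, hn, hx1, hx2⟩ := hx
      refine ⟨?_, hx2⟩
      simp only [hV, Set.mem_iUnion]
      exact ⟨n, (le_max_left _ _).trans (hS1 n hn), hx1⟩
    have h5 : (β / 2 * a) ^ 2 ≤ μ.real (V N ∩ B) * (C * a ^ 2) := by
      calc (β / 2 * a) ^ 2 ≤ (∑ n ∈ S, μ.real (A n ∩ B)) ^ 2 := by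
            refine pow_le_pow_left₀ (by positivity) h2 2
        _ ≤ _ := h1
        _ ≤ μ.real (V N ∩ B) * (C * a ^ 2) :=
            mul_le_mul h4 h3 (Finset.sum_nonneg fun m _ => Finset.sum_nonneg fun n _ =>
              measureReal_nonneg) measureReal_nonneg
    have ha2 : 0 < a ^ 2 := by positivity
    rw [hη, div_le_iff₀ hC]
    have h6 : (β / 2) ^ 2 * a ^ 2 ≤ (μ.real (V N ∩ B) * C) * a ^ 2 := by
      calc (β / 2) ^ 2 * a ^ 2 = (β / 2 * a) ^ 2 := by ring
        _ ≤ _ := h5
        _ = _ := by ring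
    exact le_of_mul_le_mul_right h6 ha2
  have hlim : η ≤ μ.real (E ∩ B) := by
    have h1 : E ∩ B = ⋂ N, (V N ∩ B) := by
      rw [hEV, Set.iInter_inter]
    have h2 : Antitone fun N => V N ∩ B := by
      intro N N' hNN x hx
      refine ⟨?_, hx.2⟩
      have h3 := hx.1
      simp only [hV, Set.mem_iUnion] at h3 ⊢
      obtain ⟨n, hn, hx1⟩ := h3
      exact ⟨n, hNN.trans hn, hx1⟩
    have h3 := tendsto_measure_iInter_atTop (μ := μ)
      (fun N => ((hVm N).inter hBm).nullMeasurableSet) h2 ⟨0, measure_ne_top μ _⟩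
    rw [← h1] at h3
    have h4 := (ENNReal.tendsto_toReal (measure_ne_top μ (E ∩ B))).comp h3
    exact ge_of_tendsto' h4 hbig
  have hsmall : μ.real (E ∩ B) ≤ η / 2 := by
    have h1 : μ.real (E ∩ F') + μ.real (E \ F') = μ.real E := measureReal_inter_add_sdiff hF'm
    have h2 : μ.real (E ∩ F') = μ.real F := by
      rw [hinter _ hEm, Set.inter_eq_self_of_subset_right hFE]
    have h3 : E ∩ B = E \ F' := rfl
    rw [h3]
    linarith
  linarith

end Vale.Agent.P028
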