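import Vale.Agent.Lib.P028.Defs

/-! P028, module M5: from the circle to the line. -/

namespace Vale.Agent.P028

open MeasureTheory Set Metric

theorem transfer (A : ℕ → Set UnitAddCircle)
    (h : ∀ᵐ x : UnitAddCircle, ∃ᶠ n in Filter.atTop, x ∈ A n) :
    ∀ᵐ x : ℝ, ∃ᶠ n in Filter.atTop, (x : UnitAddCircle) ∈ A n := by
  have h1 : ∀ t : ℤ, ∀ᵐ x : ℝ ∂(volume.restrict (Ioc (t : ℝ) (t + 1))),
      ∃ᶠ n in Filter.atTop, (x : UnitAddCircle) ∈ A n := by
    intro t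
    exact (UnitAddCircle.measurePreserving_mk (t : ℝ)).quasiMeasurePreserving.ae h
  have h2 : ∀ᵐ x : ℝ ∂(volume.restrict (⋃ t : ℤ, Ioc (t : ℝ) (t + 1))),
      ∃ᶠ n in Filter.atTop, (x : UnitAddCircle) ∈ A n :=
    (ae_restrict_iUnion_iff _ _).2 h1
  rwa [iUnion_Ioc_intCast, Measure.restrict_univ] at h2

theorem mem_E_iff (γ ψ : ℝ) (n : ℕ) (x : ℝ) :
    (x : UnitAddCircle) ∈ E γ ψ n ↔ ∃ a : ℤ, |n * x - a - γ| < ψ := by
  have e : n • (x : UnitAddCircle) - (γ : UnitAddCircle)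
      = ((n * x - γ : ℝ) : UnitAddCircle) := by
    rw [AddCircle.coe_sub, ← nsmul_eq_mul, AddCircle.coe_nsmul]
  simp only [E, mem_ofPred_eq]
  rw [e, UnitAddCircle.norm_eq]
  constructor
  · intro h
    refine ⟨round (n * x - γ), ?_⟩
    have : (n : ℝ) * x - (round (n * x - γ) : ℤ) - γ
        = n * x - γ - (round (n * x - γ) : ℤ) := by ring
    rw [this]; exact h
  · rintro ⟨a, ha⟩
    refine lt_of_le_of_lt (round_le _ a) ?_
    have : (n : ℝ) * x - γ - a = n * x - a - γ := by ring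
    rw [this]; exact ha

end Vale.Agent.P028
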