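import Vale.Agent.Lib.P028.Defs

/-!
P028, part M6: sum of greatest common divisors, dyadic pigeonhole for the divisor function.
-/

namespace Vale.Agent.P028

theorem gcd_sum (n : ℕ) (hn : 1 ≤ n) :
    ∑ m ∈ Finset.range n, (Nat.gcd m n : ℝ) ≤ n * (n.divisors.card : ℝ) := by
  have h : ∑ m ∈ Finset.range n, Nat.gcd m n ≤ n * n.divisors.card := by
    calc ∑ m ∈ Finset.range n, Nat.gcd m n
        ≤ ∑ m ∈ Finset.range n, ∑ d ∈ n.divisors, (if d ∣ m then d else 0) := by
          apply Finset.sum_le_sum
          intro m _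
          have h1 := Finset.single_le_sum (f := fun d => if d ∣ m then d else 0)
            (s := n.divisors) (a := Nat.gcd m n) (fun _ _ => Nat.zero_le _)
            (Nat.mem_divisors.mpr ⟨Nat.gcd_dvd_right m n, by omega⟩)
          simpa [Nat.gcd_dvd_left] using h1
      _ = ∑ d ∈ n.divisors, ∑ m ∈ Finset.range n, (if d ∣ m then d else 0) := Finset.sum_comm
      _ ≤ ∑ d ∈ n.divisors, n := by
          apply Finset.sum_le_sum
          intro d hd
          rw [← Finset.sum_filter, Finset.sum_const, smul_eq_mul]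
          have hdn := Nat.dvd_of_mem_divisors hd
          have hd0 : 0 < d := Nat.pos_of_mem_divisors hd
          have hc : ((Finset.range n).filter (fun m => d ∣ m)).card
              ≤ (Finset.range (n / d)).card := by
            apply Finset.card_le_card_of_injOn (fun m => m / d)
            · intro m hm
              have hm' := Finset.mem_filter.mp hm
              have hlt := Finset.mem_range.mp hm'.1
              exact Finset.mem_coe.mpr (Finset.mem_range.mpr
                (Nat.div_lt_div_of_lt_of_dvd hdn hlt))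
            · intro m hm m' hm' hmm
              have h1 := (Finset.mem_filter.mp hm).2
              have h2 := (Finset.mem_filter.mp hm').2
              have h3 : m / d = m' / d := hmm
              rw [← Nat.div_mul_cancel h1, ← Nat.div_mul_cancel h2, h3]
          rw [Finset.card_range] at hc
          calc ((Finset.range n).filter (fun m => d ∣ m)).card * d ≤ (n / d) * d :=
                Nat.mul_le_mul_right _ hc
            _ = n := Nat.div_mul_cancel hdn
      _ = n * n.divisors.card := by
          rw [Finset.sum_const, smul_eq_mul, mul_comm]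
  exact_mod_cast h

theorem dyadic (ψ : ℕ → ℝ) (h0 : ∀ n, 0 ≤ ψ n) {ε : ℝ} (hε : 0 < ε)
    (hdiv : ¬ Summable (fun n : ℕ => ψ n / ((n.divisors.card : ℝ) ^ (1 + ε)))) (N₀ : ℕ) :
    ∃ (T : ℕ) (S : Finset ℕ), 1 ≤ T ∧ (∀ n ∈ S, N₀ ≤ n ∧ 1 ≤ n ∧ n.divisors.card ≤ T) ∧
      (T : ℝ) ≤ ∑ n ∈ S, ψ n := by
  classical
  by_contra hcon
  push Not at hcon
  apply hdiv
  set N1 := max N₀ 1 with hN1
  rw [← summable_nat_add_iff N1]
  set ρ : ℝ := ((2 : ℝ) ^ ε)⁻¹ with hρ
  have h2e : (1 : ℝ) < (2 : ℝ) ^ ε := Real.one_lt_rpow (by norm_num) hε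
  have hρ0 : 0 ≤ ρ := by positivity
  have hρ1 : ρ < 1 := inv_lt_one_of_one_lt₀ h2e
  have hgeo := summable_geometric_of_lt_one hρ0 hρ1
  apply summable_of_sum_le (c := 2 * ∑' k : ℕ, ρ ^ k)
  · intro i
    exact div_nonneg (h0 _) (by positivity)
  · intro u
    set f : ℕ → ℝ := fun i => ψ (i + N1) / (((i + N1).divisors.card : ℝ) ^ (1 + ε)) with hf
    set κ : ℕ → ℕ := fun i => Nat.log 2 ((i + N1).divisors.card) with hκ
    have hfib : ∀ k : ℕ, ∑ i ∈ u.filter (fun i => κ i = k), f i ≤ 2 * ρ ^ k := by
      intro k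
      set S := (u.filter (fun i => κ i = k)).map (addRightEmbedding N1) with hS
      have hcard : ∀ i, 0 < (i + N1).divisors.card := by
        intro i
        rw [Finset.card_pos]
        exact ⟨1, Nat.mem_divisors.mpr ⟨one_dvd _, by
          have : 1 ≤ N1 := le_max_right _ _
          omega⟩⟩
      have hS1 := hcon (2 ^ (k + 1)) S Nat.one_le_two_pow (by
        intro n hn
        obtain ⟨i, hi, rfl⟩ := Finset.mem_map.mp hn
        have hi2 := (Finset.mem_filter.mp hi).2
        refine ⟨?_, ?_, ?_⟩
        · have : N₀ ≤ N1 := le_max_left _ _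
          simp only [addRightEmbedding_apply]
          omega
        · have : 1 ≤ N1 := le_max_right _ _
          simp only [addRightEmbedding_apply]
          omega
        · simp only [addRightEmbedding_apply]
          have h3 := Nat.lt_pow_succ_log_self (b := 2) (by norm_num) ((i + N1).divisors.card)
          have h4 : Nat.log 2 ((i + N1).divisors.card) = k := hi2
          rw [h4] at h3
          exact h3.le)
      rw [hS, Finset.sum_map] at hS1
      have hpk : (0 : ℝ) < ((2 : ℝ) ^ k) ^ (1 + ε) := by positivity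
      have hle : ∑ i ∈ u.filter (fun i => κ i = k), f i
          ≤ ∑ i ∈ u.filter (fun i => κ i = k), ψ (i + N1) / ((2 : ℝ) ^ k) ^ (1 + ε) := by
        apply Finset.sum_le_sum
        intro i hi
        have hi2 := (Finset.mem_filter.mp hi).2
        apply div_le_div_of_nonneg_left (h0 _) hpk
        apply Real.rpow_le_rpow (by positivity)
        · have h3 := Nat.pow_log_le_self 2 (hcard i).ne'
          have h4 : Nat.log 2 ((i + N1).divisors.card) = k := hi2
          rw [h4] at h3
          exact_mod_cast h3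
        · linarith
      refine hle.trans ?_
      rw [← Finset.sum_div, div_le_iff₀ hpk]
      refine hS1.le.trans ?_
      have e1 : ((2 : ℝ) ^ k) ^ (1 + ε) = 2 ^ k * ((2 : ℝ) ^ ε) ^ k := by
        rw [Real.rpow_add (by positivity), Real.rpow_one, ← Real.rpow_natCast ((2 : ℝ) ^ ε) k,
          ← Real.rpow_mul (by norm_num), ← Real.rpow_natCast (2 : ℝ) k,
          ← Real.rpow_mul (by norm_num), mul_comm ε]
      have e2 : ρ ^ k * ((2 : ℝ) ^ ε) ^ k = 1 := by
        rw [← mul_pow, hρ, inv_mul_cancel₀ (by positivity), one_pow]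
      rw [e1]
      have e3 : 2 * ρ ^ k * (2 ^ k * ((2 : ℝ) ^ ε) ^ k) = 2 * 2 ^ k := by
        calc 2 * ρ ^ k * (2 ^ k * ((2 : ℝ) ^ ε) ^ k)
            = 2 * 2 ^ k * (ρ ^ k * ((2 : ℝ) ^ ε) ^ k) := by ring
          _ = 2 * 2 ^ k := by rw [e2, mul_one]
      rw [e3]
      push_cast
      rw [pow_succ]
      linarith
    set K := u.sup κ + 1 with hK
    have hmaps : ∀ i ∈ u, κ i ∈ Finset.range K := by
      intro i hi
      have := Finset.le_sup (f := κ) hi
      exact Finset.mem_range.mpr (by omega)
    calc ∑ i ∈ u, f i = ∑ k ∈ Finset.range K, ∑ i ∈ u.filter (fun i => κ i = k), f i :=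
          (Finset.sum_fiberwise_of_maps_to hmaps f).symm
      _ ≤ ∑ k ∈ Finset.range K, 2 * ρ ^ k := Finset.sum_le_sum (fun k _ => hfib k)
      _ = 2 * ∑ k ∈ Finset.range K, ρ ^ k := by rw [Finset.mul_sum]
      _ ≤ 2 * ∑' k : ℕ, ρ ^ k := by
          have := hgeo.sum_le_tsum (Finset.range K) (fun k _ => pow_nonneg hρ0 k)
          linarith

end Vale.Agent.P028
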