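import Vale.Agent.Lib.P028.M1
import Vale.Agent.Lib.P028.M2
import Vale.Agent.Lib.P028.M3
import Vale.Agent.Lib.P028.M4
import Vale.Agent.Lib.P028.M5
import Vale.Agent.Lib.P028.M6

/-!
P028: the criterion: gcd sums on the support control the quasi-independence.
-/

namespace Vale.Agent.P028
open MeasureTheory Set Metric

theorem overlap (γ γ' : ℝ) {ψ ψ' : ℝ} (h0 : 0 ≤ ψ) (h0' : 0 ≤ ψ')
    (h1' : ψ' ≤ 1 / 2) {m n : ℕ} (hm : 1 ≤ m) (hn : 1 ≤ n) :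
    volume.real (E γ ψ m ∩ E γ' ψ' n) ≤ (2 * ψ') * (2 * (ψ + (Nat.gcd m n : ℝ) / n)) :=
  overlap_of isOpen_E (fun γ _ h0 h1 _ hn => volume_E γ h0 h1 hn) (fun N _ F hF y => avg_le N F hF y)
    (fun N _ G H hG hH hi c hc => inter_le N G H hG hH hi c hc) γ γ' h0 h0' h1' hm hn

theorem equi (F : Set UnitAddCircle) (hF : IsCompact F) {δ : ℝ} (hδ : 0 < δ) :
    ∃ N₀ : ℕ, 1 ≤ N₀ ∧ ∀ n ≥ N₀, ∀ γ ψ : ℝ,
      volume.real (E γ ψ n ∩ F) ≤ (volume.real F + δ) * volume.real (E γ ψ n) :=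
  equi_of isOpen_E (fun N _ F hF y => avg_le N F hF y)
    (fun N _ G H hG hH hi c hc => inter_le N G H hG hH hi c hc) F hF hδ

theorem quad (γ ψ : ℕ → ℝ) (h0 : ∀ n, 0 ≤ ψ n) {C : ℝ} (S : Finset ℕ)
    (hS : ∀ n ∈ S, 1 ≤ n ∧ ψ n ≤ 1 / 2) (h1 : 1 ≤ ∑ n ∈ S, ψ n)
    (hq : ∑ n ∈ S, ψ n / n * ∑ m ∈ S with m < n, (Nat.gcd m n : ℝ) ≤ C * (∑ n ∈ S, ψ n) ^ 2) :
    ∑ m ∈ S, ∑ n ∈ S, (volume : Measure UnitAddCircle).real
        (E (γ m) (ψ m) m ∩ E (γ n) (ψ n) n) ≤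
      (6 + 8 * C) * (∑ n ∈ S, ψ n) ^ 2 := by
  have key : ∀ m ∈ S, ∀ n ∈ S, (volume : Measure UnitAddCircle).real
        (E (γ m) (ψ m) m ∩ E (γ n) (ψ n) n) ≤
      4 * (ψ m * ψ n) + (if m < n then 4 * (ψ n / n * (Nat.gcd m n : ℝ)) else 0) +
        (if n < m then 4 * (ψ m / m * (Nat.gcd n m : ℝ)) else 0) +
        (if m = n then 2 * ψ n else 0) := by
    intro m hm n hn
    obtain ⟨hm1, hm2⟩ := hS m hm
    obtain ⟨hn1, hn2⟩ := hS n hn
    have hpm := h0 m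
    have hpn := h0 n
    rcases lt_trichotomy m n with h | h | h
    · have := overlap (γ m) (γ n) (h0 m) (h0 n) hn2 hm1 hn1
      rw [if_pos h, if_neg (by omega), if_neg (by omega)]
      refine this.trans (le_of_eq ?_)
      ring
    · subst h
      rw [inter_self, volume_E _ (h0 m) hm2 hm1]
      simp only [lt_irrefl, if_false, if_true]
      nlinarith [mul_nonneg hpm hpm]
    · have := overlap (γ n) (γ m) (h0 n) (h0 m) hm2 hn1 hm1
      rw [if_neg (by omega), if_pos h, if_neg (by omega), inter_comm]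
      refine this.trans (le_of_eq ?_)
      ring
  refine (Finset.sum_le_sum fun m hm => Finset.sum_le_sum fun n hn => key m hm n hn).trans ?_
  simp only [Finset.sum_add_distrib]
  have e1 : ∑ m ∈ S, ∑ n ∈ S, 4 * (ψ m * ψ n) = 4 * (∑ n ∈ S, ψ n) ^ 2 := by
    rw [sq, Finset.sum_mul_sum, Finset.mul_sum]
    simp only [Finset.mul_sum]
  have e3 : ∑ m ∈ S, ∑ n ∈ S, (if n < m then 4 * (ψ m / m * (Nat.gcd n m : ℝ)) else 0) =
      4 * ∑ n ∈ S, ψ n / n * ∑ m ∈ S with m < n, (Nat.gcd m n : ℝ) := by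
    rw [Finset.mul_sum]
    refine Finset.sum_congr rfl fun m _ => ?_
    rw [← Finset.sum_filter, Finset.mul_sum, Finset.mul_sum]
  have e2 : ∑ m ∈ S, ∑ n ∈ S, (if m < n then 4 * (ψ n / n * (Nat.gcd m n : ℝ)) else 0) =
      4 * ∑ n ∈ S, ψ n / n * ∑ m ∈ S with m < n, (Nat.gcd m n : ℝ) := by
    rw [Finset.sum_comm, e3]
  have e4 : ∑ m ∈ S, ∑ n ∈ S, (if m = n then 2 * ψ n else 0) = 2 * ∑ n ∈ S, ψ n := by
    rw [Finset.mul_sum]
    refine Finset.sum_congr rfl fun m hm => ?_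
    rw [Finset.sum_ite_eq]
    simp [hm]
  rw [e1, e2, e3, e4]
  nlinarith

theorem criterion (γ ψ : ℕ → ℝ) (h0 : ∀ n, 0 ≤ ψ n) (C : ℝ)
    (hq : ∀ N₀ : ℕ, ∃ S : Finset ℕ, (∀ n ∈ S, N₀ ≤ n ∧ 1 ≤ n) ∧ 1 ≤ ∑ n ∈ S, ψ n ∧
      ∑ n ∈ S, ψ n / n * ∑ m ∈ S with m < n, (Nat.gcd m n : ℝ) ≤ C * (∑ n ∈ S, ψ n) ^ 2) :
    ∀ᵐ x : ℝ, ∃ᶠ n in Filter.atTop, ∃ a : ℤ, |n * x - a - γ n| < ψ n := by
  by_cases hbig : ∃ᶠ n in Filter.atTop, 1 / 2 < ψ n
  · refine Filter.Eventually.of_forall fun x => hbig.mono fun n hn => ?_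
    refine ⟨round (n * x - γ n), ?_⟩
    have := abs_sub_round (n * x - γ n)
    rw [show n * x - (round (n * x - γ n) : ℤ) - γ n = (n * x - γ n) - (round (n * x - γ n) : ℤ) by
      ring]
    linarith
  · rw [Filter.not_frequently] at hbig
    obtain ⟨N1, hN1⟩ := Filter.eventually_atTop.1 hbig
    have hprob : IsProbabilityMeasure (volume : Measure UnitAddCircle) :=
      ⟨UnitAddCircle.measure_univ⟩
    have h := zero_one (volume : Measure UnitAddCircle) (fun n => E (γ n) (ψ n) n)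
      (fun n => (isOpen_E _ _ _).measurableSet)
      (fun F hF δ hδ => by
        obtain ⟨N₀, _, h⟩ := equi F hF hδ
        exact ⟨N₀, fun n hn => h n hn _ _⟩)
      ((6 + 8 * |C|) / 4) (by positivity)
      (fun N₀ => by
        obtain ⟨S, h1, h2, h3⟩ := hq (max N₀ N1)
        have hS : ∀ n ∈ S, 1 ≤ n ∧ ψ n ≤ 1 / 2 := fun n hn =>
          ⟨(h1 n hn).2, not_lt.1 (hN1 n (le_trans (le_max_right _ _) (h1 n hn).1))⟩
        have hsum : ∑ n ∈ S, (volume : Measure UnitAddCircle).real (E (γ n) (ψ n) n) =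
            2 * ∑ n ∈ S, ψ n := by
          rw [Finset.mul_sum]
          exact Finset.sum_congr rfl fun n hn => volume_E _ (h0 n) (hS n hn).2 (hS n hn).1
        refine ⟨S, fun n hn => le_trans (le_max_left _ _) (h1 n hn).1, ?_, ?_⟩
        · rw [hsum]
          linarith
        · rw [hsum]
          have hle : C * (∑ n ∈ S, ψ n) ^ 2 ≤ |C| * (∑ n ∈ S, ψ n) ^ 2 :=
            mul_le_mul_of_nonneg_right (le_abs_self C) (sq_nonneg _)
          have := quad γ ψ h0 S hS h2 (h3.trans hle)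
          refine this.trans (le_of_eq ?_)
          ring)
    refine (transfer _ h).mono fun x hx => hx.mono fun n hn => ?_
    exact (mem_E_iff _ _ _ _).1 hn

end Vale.Agent.P028
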