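import Mathlib

/-!
P028: inhomogeneous approximation. Basic sets on the circle.
-/

namespace Vale.Agent.P028

open MeasureTheory Set

/-- the points `x` of the circle with `‖n x - γ‖ < ψ` -/
def E (γ ψ : ℝ) (n : ℕ) : Set UnitAddCircle :=
  {x | ‖n • x - (γ : UnitAddCircle)‖ < ψ}

end Vale.Agent.P028
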