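import Vale.Agent.Lib.P028.Main

/-!
P028: final form with a moving target.
-/

namespace Vale.Agent.P028
open MeasureTheory Set

/-- the `x` with `|q x - a - γ_q| < ψ(q)` for infinitely many positive integers `q` (with some
integer `a`); for a constant `γ` this is the set `W_γ(ψ)` of the problem -/
def W (γ ψ : ℕ → ℝ) : Set ℝ :=
  {x : ℝ | {q : ℕ | 0 < q ∧ ∃ a : ℤ, |(q : ℝ) * x - a - γ q| < ψ q}.Infinite}

theorem W_full (γ ψ : ℕ → ℝ)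
    (h : ∀ᵐ x : ℝ, ∃ᶠ n in Filter.atTop, ∃ a : ℤ, |n * x - a - γ n| < ψ n) :
    volume (W γ ψ)ᶜ = 0 := by
  rw [← mem_ae_iff]
  refine h.mono fun x hx => ?_
  show {q : ℕ | 0 < q ∧ ∃ a : ℤ, |(q : ℝ) * x - a - γ q| < ψ q}.Infinite
  rw [← Nat.frequently_atTop_iff_infinite]
  refine (hx.and_eventually (Filter.eventually_gt_atTop 0)).mono fun n hn => ?_
  exact ⟨hn.2, hn.1⟩

/-- the criterion with a constant, for a smaller function -/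
theorem crit_theta (γ ψ θ : ℕ → ℝ) (h0 : ∀ n, 0 ≤ θ n) (h1 : ∀ n, θ n ≤ ψ n) (C : ℝ)
    (hq : ∀ N₀ : ℕ, ∃ S : Finset ℕ, (∀ n ∈ S, N₀ ≤ n ∧ 1 ≤ n) ∧ 1 ≤ ∑ n ∈ S, θ n ∧
      ∑ n ∈ S, θ n / n * ∑ m ∈ S with m < n, (Nat.gcd m n : ℝ) ≤ C * (∑ n ∈ S, θ n) ^ 2) :
    ∀ᵐ x : ℝ, ∃ᶠ n in Filter.atTop, ∃ a : ℤ, |n * x - a - γ n| < ψ n :=
  (criterion γ θ h0 C hq).mono fun _ hx => hx.mono fun n hn => by
    obtain ⟨a, ha⟩ := hn
    exact ⟨a, lt_of_lt_of_le ha (h1 n)⟩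

theorem main_T (γ ψ : ℕ → ℝ) (h0 : ∀ n, 0 ≤ ψ n) (c : ℝ) (hc : 0 < c)
    (H : ∀ T₀ : ℕ, ∃ T : ℕ, T₀ ≤ T ∧ ∃ F : Finset ℕ,
      (∀ q ∈ F, 1 ≤ q ∧ q.divisors.card ≤ T) ∧ c * T ≤ ∑ q ∈ F, min (ψ q) (1 / 2)) :
    ∀ᵐ x : ℝ, ∃ᶠ n in Filter.atTop, ∃ a : ℤ, |n * x - a - γ n| < ψ n := by
  have hθ0 : ∀ n, 0 ≤ min (ψ n) (1 / 2) := fun n => le_min (h0 n) (by norm_num)
  refine crit_theta γ ψ (fun n => min (ψ n) (1 / 2)) hθ0 (fun n => min_le_left _ _) (2 / c)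
    fun N₀ => ?_
  obtain ⟨T₀, hT₀⟩ := exists_nat_gt (max ((N₀ : ℝ) / c) (2 / c))
  obtain ⟨T, hT, F, hF, hsum⟩ := H T₀
  have hTR : (T₀ : ℝ) ≤ T := by exact_mod_cast hT
  have hT1 : (N₀ : ℝ) ≤ c * T := by
    have := (le_max_left ((N₀ : ℝ) / c) (2 / c)).trans_lt hT₀
    rw [div_lt_iff₀ hc] at this
    nlinarith
  have hT2 : 2 ≤ c * T := by
    have := (le_max_right ((N₀ : ℝ) / c) (2 / c)).trans_lt hT₀
    rw [div_lt_iff₀ hc] at this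
    nlinarith
  have hTpos : (0 : ℝ) < T := by
    by_contra h
    have : c * (T : ℝ) ≤ 0 := mul_nonpos_of_nonneg_of_nonpos hc.le (not_lt.1 h)
    linarith
  set S : Finset ℕ := F.filter (fun q => N₀ ≤ q) with hS
  have hsmall : ∑ q ∈ F with ¬ N₀ ≤ q, min (ψ q) (1 / 2) ≤ N₀ / 2 := by
    have hsub : F.filter (fun q => ¬ N₀ ≤ q) ⊆ Finset.range N₀ := by
      intro q hq
      rw [Finset.mem_filter] at hq
      exact Finset.mem_range.2 (not_le.1 hq.2)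
    calc ∑ q ∈ F with ¬ N₀ ≤ q, min (ψ q) (1 / 2)
        ≤ ∑ q ∈ Finset.range N₀, min (ψ q) (1 / 2) :=
          Finset.sum_le_sum_of_subset_of_nonneg hsub (fun q _ _ => hθ0 q)
      _ ≤ ∑ _q ∈ Finset.range N₀, (1 / 2 : ℝ) := Finset.sum_le_sum fun q _ => min_le_right _ _
      _ = N₀ / 2 := by
          rw [Finset.sum_const, Finset.card_range, nsmul_eq_mul]
          ring
  have hsplit : ∑ q ∈ S, min (ψ q) (1 / 2) + ∑ q ∈ F with ¬ N₀ ≤ q, min (ψ q) (1 / 2) =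
      ∑ q ∈ F, min (ψ q) (1 / 2) := Finset.sum_filter_add_sum_filter_not _ _ _
  have hbig : c * T / 2 ≤ ∑ q ∈ S, min (ψ q) (1 / 2) := by linarith
  have hSmem : ∀ q ∈ S, N₀ ≤ q ∧ 1 ≤ q ∧ q.divisors.card ≤ T := by
    intro q hq
    rw [hS, Finset.mem_filter] at hq
    exact ⟨hq.2, hF q hq.1⟩
  refine ⟨S, fun q hq => ⟨(hSmem q hq).1, (hSmem q hq).2.1⟩, by linarith, ?_⟩
  have h1 : ∀ q ∈ S, min (ψ q) (1 / 2) / q * ∑ m ∈ S with m < q, (Nat.gcd m q : ℝ) ≤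
      T * min (ψ q) (1 / 2) := by
    intro q hq
    obtain ⟨_, hq1, hqT⟩ := hSmem q hq
    have hqR : (0 : ℝ) < q := by exact_mod_cast hq1
    have h2 : ∑ m ∈ S with m < q, (Nat.gcd m q : ℝ) ≤ q * (q.divisors.card : ℝ) := by
      refine le_trans ?_ (gcd_sum q hq1)
      refine Finset.sum_le_sum_of_subset_of_nonneg ?_ (fun _ _ _ => Nat.cast_nonneg _)
      intro m hm
      rw [Finset.mem_filter] at hm
      exact Finset.mem_range.2 hm.2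
    have h3 : (q.divisors.card : ℝ) ≤ T := by exact_mod_cast hqT
    calc min (ψ q) (1 / 2) / q * ∑ m ∈ S with m < q, (Nat.gcd m q : ℝ)
        ≤ min (ψ q) (1 / 2) / q * (q * T) := by
          refine mul_le_mul_of_nonneg_left (h2.trans ?_) (div_nonneg (hθ0 q) hqR.le)
          exact mul_le_mul_of_nonneg_left h3 hqR.le
      _ = T * min (ψ q) (1 / 2) := by
          field_simp
  refine (Finset.sum_le_sum h1).trans ?_
  rw [← Finset.mul_sum]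
  have hpos : 0 ≤ ∑ q ∈ S, min (ψ q) (1 / 2) := Finset.sum_nonneg fun q _ => hθ0 q
  have h4 : (T : ℝ) ≤ 2 / c * ∑ q ∈ S, min (ψ q) (1 / 2) := by
    rw [div_mul_eq_mul_div, le_div_iff₀ hc]
    linarith
  calc (T : ℝ) * ∑ q ∈ S, min (ψ q) (1 / 2)
      ≤ (2 / c * ∑ q ∈ S, min (ψ q) (1 / 2)) * ∑ q ∈ S, min (ψ q) (1 / 2) :=
        mul_le_mul_of_nonneg_right h4 hpos
    _ = 2 / c * (∑ q ∈ S, min (ψ q) (1 / 2)) ^ 2 := by ring

end Vale.Agent.P028
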