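import Vale.Agent.Lib.P028.Defs

/-! P028, module M1: the sets `E` are open and have measure `2 ψ`. -/

namespace Vale.Agent.P028

open MeasureTheory Set Metric

theorem isOpen_E (γ ψ : ℝ) (n : ℕ) : IsOpen (E γ ψ n) := by
  have h : Continuous fun x : UnitAddCircle => ‖n • x - (γ : UnitAddCircle)‖ :=
    ((continuous_const_smul n).sub continuous_const).norm
  exact isOpen_lt h continuous_const

theorem volume_E (γ : ℝ) {ψ : ℝ} (h0 : 0 ≤ ψ) (h1 : ψ ≤ 1 / 2) {n : ℕ} (hn : 1 ≤ n) :
    volume.real (E γ ψ n) = 2 * ψ := by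
  have hmp : MeasurePreserving (fun x : UnitAddCircle => (n : ℤ) • x) volume volume :=
    Measure.measurePreserving_zsmul volume (by exact_mod_cast (by omega : n ≠ 0))
  have hE : E γ ψ n = (fun x : UnitAddCircle => (n : ℤ) • x) ⁻¹' ball (γ : UnitAddCircle) ψ := by
    ext x
    simp only [E, mem_ofPred_eq, mem_preimage, mem_ball, dist_eq_norm, natCast_zsmul]
  have h2 : volume (E γ ψ n) = ENNReal.ofReal (2 * ψ) := by
    rw [hE, hmp.measure_preimage measurableSet_ball.nullMeasurableSet]
    rcases eq_or_lt_of_le h0 with h | h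
    · rw [← h]; simp
    · rw [← measure_congr (AddCircle.closedBall_ae_eq_ball (x := (γ : UnitAddCircle)) (ε := ψ)),
        AddCircle.volume_closedBall, min_eq_right (by linarith)]
  rw [measureReal_def, h2, ENNReal.toReal_ofReal (by linarith)]

end Vale.Agent.P028
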