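import Vale.Agent.Lib.P028.Crit

/-!
P028: the consequences of the criterion.
-/

namespace Vale.Agent.P028
open MeasureTheory Set Metric

theorem main_gcd (γ ψ : ℕ → ℝ) (h0 : ∀ n, 0 ≤ ψ n) (S : Set ℕ) (K : ℝ)
    (hK : ∀ q ∈ S, ∑ m ∈ Finset.range q, S.indicator (fun m => (Nat.gcd m q : ℝ)) m ≤ K * q)
    (hdiv : ¬ Summable (S.indicator ψ)) :
    ∀ᵐ x : ℝ, ∃ᶠ n in Filter.atTop, ∃ a : ℤ, |n * x - a - γ n| < ψ n := by
  classical
  have hf0 : ∀ n, 0 ≤ S.indicator ψ n := fun n => indicator_nonneg (fun n _ => h0 n) n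
  rw [not_summable_iff_tendsto_nat_atTop_of_nonneg hf0] at hdiv
  refine criterion γ ψ h0 |K| fun N₀ => ?_
  set M := max N₀ 1 with hM
  obtain ⟨n, hn1, hn2⟩ := ((hdiv.eventually_ge_atTop
    (1 + ∑ i ∈ Finset.range M, S.indicator ψ i)).and (Filter.eventually_ge_atTop M)).exists
  set T : Finset ℕ := (Finset.Ico M n).filter (fun q => q ∈ S) with hT
  have hTmem : ∀ q ∈ T, M ≤ q ∧ q ∈ S := by
    intro q hq
    rw [hT, Finset.mem_filter, Finset.mem_Ico] at hq
    exact ⟨hq.1.1, hq.2⟩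
  have hsum : ∑ q ∈ T, ψ q = ∑ q ∈ Finset.Ico M n, S.indicator ψ q := by
    rw [hT, Finset.sum_filter]
    refine Finset.sum_congr rfl fun q _ => ?_
    by_cases h : q ∈ S <;> simp [h]
  have hge : 1 ≤ ∑ q ∈ T, ψ q := by
    rw [hsum, Finset.sum_Ico_eq_sub _ hn2]
    linarith
  refine ⟨T, fun q hq => ?_, hge, ?_⟩
  · have := (hTmem q hq).1
    exact ⟨le_trans (le_max_left _ _) this, le_trans (le_max_right _ _) this⟩
  · have h1 : ∀ q ∈ T, ψ q / q * ∑ m ∈ T with m < q, (Nat.gcd m q : ℝ) ≤ |K| * ψ q := by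
      intro q hq
      obtain ⟨hqM, hqS⟩ := hTmem q hq
      have hq1 : 1 ≤ q := le_trans (le_max_right _ _) hqM
      have hqR : (0 : ℝ) < q := by exact_mod_cast hq1
      have h2 : ∑ m ∈ T with m < q, (Nat.gcd m q : ℝ) ≤ K * q := by
        refine le_trans ?_ (hK q hqS)
        have h3 : ∑ m ∈ T with m < q, (Nat.gcd m q : ℝ) =
            ∑ m ∈ T with m < q, S.indicator (fun m => (Nat.gcd m q : ℝ)) m := by
          refine Finset.sum_congr rfl fun m hm => ?_
          rw [Finset.mem_filter] at hm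
          rw [indicator_of_mem (hTmem m hm.1).2]
        rw [h3]
        refine Finset.sum_le_sum_of_subset_of_nonneg ?_ ?_
        · intro m hm
          rw [Finset.mem_filter] at hm
          exact Finset.mem_range.2 hm.2
        · intro m _ _
          exact indicator_nonneg (fun _ _ => Nat.cast_nonneg _) m
      calc ψ q / q * ∑ m ∈ T with m < q, (Nat.gcd m q : ℝ) ≤ ψ q / q * (|K| * q) := by
            refine mul_le_mul_of_nonneg_left (h2.trans ?_) (div_nonneg (h0 q) hqR.le)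
            exact mul_le_mul_of_nonneg_right (le_abs_self K) hqR.le
        _ = |K| * ψ q := by
            field_simp
    refine (Finset.sum_le_sum h1).trans ?_
    rw [← Finset.mul_sum]
    refine mul_le_mul_of_nonneg_left ?_ (abs_nonneg K)
    nlinarith

theorem main_tau (γ ψ : ℕ → ℝ) (h0 : ∀ n, 0 ≤ ψ n) {ε : ℝ} (hε : 0 < ε)
    (hdiv : ¬ Summable (fun n : ℕ => ψ n / ((n.divisors.card : ℝ) ^ (1 + ε)))) :
    ∀ᵐ x : ℝ, ∃ᶠ n in Filter.atTop, ∃ a : ℤ, |n * x - a - γ n| < ψ n := by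
  refine criterion γ ψ h0 1 fun N₀ => ?_
  obtain ⟨T, S, hT, hS, hsum⟩ := dyadic ψ h0 hε hdiv N₀
  have hT1 : (1 : ℝ) ≤ T := by exact_mod_cast hT
  refine ⟨S, fun n hn => ⟨(hS n hn).1, (hS n hn).2.1⟩, hT1.trans hsum, ?_⟩
  have h1 : ∀ q ∈ S, ψ q / q * ∑ m ∈ S with m < q, (Nat.gcd m q : ℝ) ≤ T * ψ q := by
    intro q hq
    obtain ⟨_, hq1, hqT⟩ := hS q hq
    have hqR : (0 : ℝ) < q := by exact_mod_cast hq1
    have h2 : ∑ m ∈ S with m < q, (Nat.gcd m q : ℝ) ≤ q * (q.divisors.card : ℝ) := by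
      refine le_trans ?_ (gcd_sum q hq1)
      refine Finset.sum_le_sum_of_subset_of_nonneg ?_ (fun _ _ _ => Nat.cast_nonneg _)
      intro m hm
      rw [Finset.mem_filter] at hm
      exact Finset.mem_range.2 hm.2
    have h3 : (q.divisors.card : ℝ) ≤ T := by exact_mod_cast hqT
    calc ψ q / q * ∑ m ∈ S with m < q, (Nat.gcd m q : ℝ) ≤ ψ q / q * (q * T) := by
          refine mul_le_mul_of_nonneg_left (h2.trans ?_) (div_nonneg (h0 q) hqR.le)
          exact mul_le_mul_of_nonneg_left h3 hqR.le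
      _ = T * ψ q := by
          field_simp
  refine (Finset.sum_le_sum h1).trans ?_
  rw [← Finset.mul_sum, one_mul, sq]
  exact mul_le_mul_of_nonneg_right hsum (Finset.sum_nonneg fun n _ => h0 n)

theorem main_bdd (γ ψ : ℕ → ℝ) (h0 : ∀ n, 0 ≤ ψ n) (K : ℕ)
    (hdiv : ¬ Summable (fun q : ℕ =>
      if q.divisors.card ≤ K then (Nat.totient q : ℝ) / q * ψ q else 0)) :
    ∀ᵐ x : ℝ, ∃ᶠ n in Filter.atTop, ∃ a : ℤ, |n * x - a - γ n| < ψ n := by
  refine main_gcd γ ψ h0 {q | q.divisors.card ≤ K} (K + 1) ?_ ?_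
  · intro q hq
    have hq' : q.divisors.card ≤ K := hq
    rcases Nat.eq_zero_or_pos q with rfl | hq1
    · simp
    · have hqR : (0 : ℝ) < q := by exact_mod_cast hq1
      have h3 : (q.divisors.card : ℝ) ≤ K := by exact_mod_cast hq'
      calc ∑ m ∈ Finset.range q, ({q | q.divisors.card ≤ K} : Set ℕ).indicator
              (fun m => (Nat.gcd m q : ℝ)) m
          ≤ ∑ m ∈ Finset.range q, (Nat.gcd m q : ℝ) := by
            refine Finset.sum_le_sum fun m _ => ?_
            exact indicator_le_self' (fun _ _ => Nat.cast_nonneg _) m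
        _ ≤ q * (q.divisors.card : ℝ) := gcd_sum q hq1
        _ ≤ (K + 1) * q := by nlinarith
  · intro hs
    apply hdiv
    refine Summable.of_nonneg_of_le (fun q => ?_) (fun q => ?_) hs
    · split_ifs
      · exact mul_nonneg (by positivity) (h0 q)
      · exact le_rfl
    · by_cases h : q.divisors.card ≤ K
      · rw [if_pos h, indicator_of_mem (show q ∈ {q : ℕ | q.divisors.card ≤ K} from h)]
        have h1 : (Nat.totient q : ℝ) / q ≤ 1 := by
          rcases Nat.eq_zero_or_pos q with rfl | hq1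
          · simp
          · rw [div_le_one (by exact_mod_cast hq1)]
            exact_mod_cast Nat.totient_le q
        nlinarith [h0 q]
      · rw [if_neg h, indicator_of_notMem (show q ∉ {q : ℕ | q.divisors.card ≤ K} from h)]

end Vale.Agent.P028
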